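import Vale.Agent.Lib.P034.T6

open Finset
open scoped Pointwise

namespace Vale.Agent.Results.P034.FlagOrbits

open Vale.Agent.Lib.P034

/-- Talagrand's inequality `q_f(F) ≤ K q(F)` for the increasing family `F = genM Γ 𝒜` of all subsets
of `X` containing a translate of a member of `𝒜`, where `Γ` is a finite group acting on the finite
set `X` and `𝒜` is a finite nonempty collection of nonempty sets (so `F` is any `Γ`-invariant
increasing family, `𝒜` holding one generator for each `Γ`-orbit of minimal members), with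
`K = 16 * flagCount Γ 𝒜`. Here `flagCount Γ 𝒜` is the sum over `A ∈ 𝒜` of the largest number of
orbits of the setwise stabilizer of `A` on `A` lying in a single `Γ`-orbit of `X`. Pointwise: a
fractional cover of cost at most `1/2` at `p` yields a cover of cost at most `1/2` at `p / K`. -/
theorem result :
    ∀ (X Γ : Type) [Fintype X] [DecidableEq X] [Group Γ] [Fintype Γ] [MulAction Γ X]
      (𝒜 : Finset (Finset X)), 𝒜.Nonempty → (∀ A ∈ 𝒜, A.Nonempty) →
        (∀ p : ℝ, 0 ≤ p → p ≤ 1 → IsFracSmall (genM Γ 𝒜) p →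
          IsSmall (genM Γ 𝒜) (p / (16 * (flagCount Γ 𝒜 : ℝ)))) ∧
        qFrac (genM Γ 𝒜) ≤ 16 * (flagCount Γ 𝒜 : ℝ) * qInt (genM Γ 𝒜) := by
  intro X Γ _ _ _ _ _ 𝒜 hne h𝒜
  refine ⟨?_, qFrac_le_multi hne h𝒜⟩
  intro p hp _ hf
  exact small_of_frac_multi hne h𝒜 hp hf

end Vale.Agent.Results.P034.FlagOrbits
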