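import Vale.Agent.Lib.P034.Core4

open Finset
open scoped Pointwise

namespace Vale.Agent.Results.P034.FlagTransitive

open Vale.Agent.Lib.P034

/-- Talagrand's conjecture `q_f(F) ≤ K q(F)` for every increasing family `F` generated by the orbit
of a nonempty set `A ⊆ X` under a finite group `Γ` acting on `X` whose setwise stabilizer of `A` is
transitive on `A` (flag-transitive hypergraphs, e.g. all copies in `K_n` of an edge-transitive graph),
with the absolute constant `K = 4096`; with `K = 2 ^ (8 Lam + 4)` if instead every orbit of the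
stabilizer on `A` contains at least `|A| / Lam` points. In each case also the pointwise form: a
fractional cover of cost at most `1/2` at `p` yields an integral cover of cost at most `1/2` at
`p / K`. -/
theorem result :
    (∀ (X Γ : Type) [Fintype X] [DecidableEq X] [Group Γ] [Fintype Γ] [MulAction Γ X]
      (A : Finset X), A.Nonempty → FlagTransitive Γ A →
        (∀ p : ℝ, 0 ≤ p → p ≤ 1 → IsFracSmall (gen Γ A) p → IsSmall (gen Γ A) (p / 4096)) ∧
        qFrac (gen Γ A) ≤ 4096 * qInt (gen Γ A)) ∧
    (∀ Lam : ℕ, ∀ (X Γ : Type) [Fintype X] [DecidableEq X] [Group Γ] [Fintype Γ] [MulAction Γ X]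
      (A : Finset X), A.Nonempty → OrbitsLarge Γ A Lam →
        (∀ p : ℝ, 0 ≤ p → p ≤ 1 → IsFracSmall (gen Γ A) p →
          IsSmall (gen Γ A) (p / 2 ^ (8 * Lam + 4))) ∧
        qFrac (gen Γ A) ≤ 2 ^ (8 * Lam + 4) * qInt (gen Γ A)) := by
  have hK : KK 1 = 4096 := by
    unfold KK
    norm_num
  constructor
  · intro X Γ _ _ _ _ _ A hA hT
    have hO := flagTransitive_orbitsLarge hT
    constructor
    · intro p hp _ hf
      have := small_of_frac hA hO hp hf
      rwa [hK] at this
    · have := qFrac_le hA hO
      rwa [hK] at this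
  · intro Lam X Γ _ _ _ _ _ A hA hO
    constructor
    · intro p hp _ hf
      exact small_of_frac hA hO hp hf
    · exact qFrac_le hA hO

end Vale.Agent.Results.P034.FlagTransitive
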