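import Vale.Agent.Lib.P034.T5

open Finset
open scoped Pointwise

namespace Vale.Agent.Results.P034.OrbitCount

open Vale.Agent.Lib.P034

/-- Talagrand's inequality `q_f(F) ≤ K q(F)` for every increasing family `F` generated by the orbit
of a nonempty set `A ⊆ X` under a finite group `Γ` acting on `X`, with `K = 16 r`, where
`r = orbitCount Γ A` is the number of orbits of the setwise stabilizer of `A` on the points of `A`.
Pointwise: a fractional cover of cost at most `1/2` at `p` yields an integral cover of cost at most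
`1/2` at `p / (16 r)`. In particular `K = 16` when the stabilizer is transitive on `A`, and
`K = 16 Lam` when every stabilizer orbit on `A` has at least `|A| / Lam` points. -/
theorem result :
    ∀ (X Γ : Type) [Fintype X] [DecidableEq X] [Group Γ] [Fintype Γ] [MulAction Γ X]
      (A : Finset X), A.Nonempty →
        (∀ p : ℝ, 0 ≤ p → p ≤ 1 → IsFracSmall (gen Γ A) p →
          IsSmall (gen Γ A) (p / (16 * (orbitCount Γ A : ℝ)))) ∧
        qFrac (gen Γ A) ≤ 16 * (orbitCount Γ A : ℝ) * qInt (gen Γ A) ∧
        (FlagTransitive Γ A → qFrac (gen Γ A) ≤ 16 * qInt (gen Γ A)) ∧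
        (∀ Lam : ℕ, OrbitsLarge Γ A Lam →
          qFrac (gen Γ A) ≤ 16 * (Lam : ℝ) * qInt (gen Γ A)) := by
  intro X Γ _ _ _ _ _ A hA
  have hnn : 0 ≤ qInt (gen Γ A) := Real.sSup_nonneg (fun p hp => hp.1)
  have hmain := qFrac_le_orb (Γ := Γ) hA
  refine ⟨?_, hmain, ?_, ?_⟩
  · intro p hp _ hf
    exact small_of_frac_orb hA hp hf
  · intro hT
    have h1 := orbitCount_eq_one hA hT
    unfold KO at hmain
    rw [h1] at hmain
    simpa using hmain
  · intro Lam hL
    have h1 := orbitCount_le_of_large hA hL
    have h2 : (orbitCount Γ A : ℝ) ≤ (Lam : ℝ) := by exact_mod_cast h1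
    unfold KO at hmain
    refine hmain.trans ?_
    gcongr

end Vale.Agent.Results.P034.OrbitCount
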