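import Mathlib

namespace Vale.Agent.Results.P034.SymmetricOrbit

open Finset

variable {X : Type*} [DecidableEq X]

/-- `𝒢` covers `F`: every member of `F` contains a member of `𝒢`. -/
def IsCover (𝒢 : Finset (Finset X)) (F : Set (Finset X)) : Prop :=
  ∀ A ∈ F, ∃ S ∈ 𝒢, S ⊆ A

/-- `F` is `p`-small: some cover has cost `∑ p^|S| ≤ 1/2`. -/
def IsSmall (F : Set (Finset X)) (p : ℝ) : Prop :=
  ∃ 𝒢 : Finset (Finset X), IsCover 𝒢 F ∧ ∑ S ∈ 𝒢, p ^ S.card ≤ 1 / 2

/-- `F` has a fractional cover of cost at most `1/2` at `p`. -/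
def HasFracCover [Fintype X] (F : Set (Finset X)) (p : ℝ) : Prop :=
  ∃ g : Finset X → ℝ, (∀ S, 0 ≤ g S ∧ g S ≤ 1) ∧ (∀ A ∈ F, 1 ≤ ∑ S ∈ A.powerset, g S) ∧
    ∑ S : Finset X, g S * p ^ S.card ≤ 1 / 2

/-- The integral expectation threshold. -/
noncomputable def qInt (F : Set (Finset X)) : ℝ := sSup {p | 0 ≤ p ∧ p ≤ 1 ∧ IsSmall F p}

/-- The fractional expectation threshold. -/
noncomputable def qFrac [Fintype X] (F : Set (Finset X)) : ℝ :=
  sSup {p | 0 ≤ p ∧ p ≤ 1 ∧ HasFracCover F p}

variable {G : Type*} [Group G] [MulAction G X]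

/-- The translate `g S`. -/
def tr (g : G) (S : Finset X) : Finset X := S.image (fun x => g • x)

variable (G) in
/-- The increasing family of all sets containing a translate of `H`. -/
def orbitFamily (H : Finset X) : Set (Finset X) := {A | ∃ g : G, tr g H ⊆ A}

lemma card_tr (g : G) (S : Finset X) : (tr g S).card = S.card :=
  Finset.card_image_of_injective _ (MulAction.injective g)

lemma tr_mul (a b : G) (S : Finset X) : tr (a * b) S = tr a (tr b S) := by
  ext x; simp [tr, mul_smul]

lemma tr_one (S : Finset X) : tr (1 : G) S = S := by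
  ext x; simp [tr]

lemma tr_union (g : G) (S T : Finset X) : tr g (S ∪ T) = tr g S ∪ tr g T :=
  Finset.image_union _ _

lemma tr_inter (g : G) (S T : Finset X) : tr g (S ∩ T) = tr g S ∩ tr g T :=
  Finset.image_inter _ _ (MulAction.injective g)

lemma tr_mono (g : G) {S T : Finset X} (h : S ⊆ T) : tr g S ⊆ tr g T :=
  Finset.image_subset_image h

lemma tr_inv_tr (g : G) (S : Finset X) : tr g⁻¹ (tr g S) = S := by
  rw [← tr_mul, inv_mul_cancel, tr_one]

lemma tr_tr_inv (g : G) (S : Finset X) : tr g (tr g⁻¹ S) = S := by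
  rw [← tr_mul, mul_inv_cancel, tr_one]

lemma mem_tr_smul (g : G) (x : X) (S : Finset X) : g • x ∈ tr g S ↔ x ∈ S := by
  simp [tr]

variable [Fintype G]

variable (G) in
/-- Every orbit on `H` of the setwise stabilizer of `H` in `G` holds at least a fraction `1 / Lam`
of the elements of `H`. -/
def OrbitsLarge (H : Finset X) (Lam : ℕ) : Prop :=
  ∀ x ∈ H, H.card ≤ Lam * (H.filter (fun y => ∃ u : G, tr u H = H ∧ u • x = y)).card

variable (G) in
/-- The number of labelled copies of `S` inside `H`. -/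
def inj (H S : Finset X) : ℕ := (univ.filter (fun h : G => tr h S ⊆ H)).card

lemma inj_tr (H S : Finset X) (g : G) : inj G H (tr g S) = inj G H S := by
  classical
  unfold inj
  refine Finset.card_bij (fun h _ => h * g) ?_ ?_ ?_
  · intro h hh
    simp only [mem_filter, mem_univ, true_and] at hh ⊢
    rwa [tr_mul]
  · intro a _ b _ hab
    exact mul_right_cancel hab
  · intro b hb
    simp only [mem_filter, mem_univ, true_and] at hb
    refine ⟨b * g⁻¹, ?_, by simp⟩
    simp only [mem_filter, mem_univ, true_and]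
    rw [← tr_mul, mul_assoc, inv_mul_cancel, mul_one]
    exact hb

lemma inj_empty (H : Finset X) : inj G H ∅ = Fintype.card G := by
  unfold inj
  have : (univ.filter (fun h : G => tr h (∅ : Finset X) ⊆ H)) = univ := by
    ext h; simp [tr]
  rw [this]; rfl

variable (G) in
/-- How many labelled copies of `S` inside `H` contain `x`. -/
def deg (H S : Finset X) (x : X) : ℕ :=
  ((univ.filter (fun h : G => tr h S ⊆ H)).filter (fun h => x ∈ tr h S)).card

variable (G) in
/-- Flatness: no element of `H` lies in more than a fraction `Lam |S| / |H|` of the labelled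
copies of `S` in `H`. -/
def Flat (H : Finset X) (Lam : ℕ) : Prop :=
  ∀ (S : Finset X), ∀ x ∈ H, H.card * deg G H S x ≤ Lam * S.card * inj G H S

lemma sum_deg (H S T : Finset X) :
    ∑ x ∈ T, deg G H S x =
      ∑ h ∈ univ.filter (fun h : G => tr h S ⊆ H), (T ∩ tr h S).card := by
  classical
  unfold deg
  simp_rw [Finset.card_filter]
  rw [Finset.sum_comm]
  refine Finset.sum_congr rfl ?_
  intro h _
  rw [← Finset.card_filter]
  rw [Finset.filter_mem_eq_inter]

lemma flat_of_orbits {H : Finset X} {Lam : ℕ} (h : OrbitsLarge G H Lam) : Flat G H Lam := by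
  classical
  intro S x hx
  set O := H.filter (fun y => ∃ u : G, tr u H = H ∧ u • x = y) with hO
  have h1 : H.card ≤ Lam * O.card := h x hx
  have hdeg : ∀ y ∈ O, deg G H S x ≤ deg G H S y := by
    intro y hy
    obtain ⟨_, u, hu, rfl⟩ := Finset.mem_filter.1 hy
    unfold deg
    refine Finset.card_le_card_of_injOn (fun h => u * h) ?_ ?_
    · intro a ha
      simp only [coe_filter, mem_filter, mem_univ, true_and, Set.mem_setOf_eq] at ha ⊢
      refine ⟨?_, ?_⟩
      · rw [tr_mul, ← hu]
        exact tr_mono u ha.1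
      · rw [tr_mul, mem_tr_smul]
        exact ha.2
    · intro a _ b _ hab
      exact mul_left_cancel hab
  have h2 : O.card * deg G H S x ≤ ∑ y ∈ O, deg G H S y := by
    rw [← smul_eq_mul]
    exact Finset.card_nsmul_le_sum _ _ _ hdeg
  have h3 : ∑ y ∈ O, deg G H S y ≤ ∑ y ∈ H, deg G H S y :=
    Finset.sum_le_sum_of_subset (Finset.filter_subset _ _)
  have h4 : ∑ y ∈ H, deg G H S y = S.card * inj G H S := by
    rw [sum_deg]
    have : ∀ h ∈ univ.filter (fun h : G => tr h S ⊆ H), (H ∩ tr h S).card = S.card := by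
      intro h hh
      simp only [mem_filter, mem_univ, true_and] at hh
      rw [Finset.inter_eq_right.2 hh, card_tr]
    rw [Finset.sum_congr rfl this, Finset.sum_const, smul_eq_mul, mul_comm]
    rfl
  calc H.card * deg G H S x ≤ (Lam * O.card) * deg G H S x := Nat.mul_le_mul_right _ h1
    _ = Lam * (O.card * deg G H S x) := by ring
    _ ≤ Lam * (S.card * inj G H S) := Nat.mul_le_mul_left _ (h2.trans (h3.trans h4.le))
    _ = Lam * S.card * inj G H S := by ring

/-- Markov: at least half of the copies of `S` in `H` meet a small `T ⊆ H` in at most half of `S`. -/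
lemma good_count {H S T : Finset X} {Lam : ℕ} (hflat : Flat G H Lam) (hTH : T ⊆ H)
    (hT4 : 4 * Lam * T.card ≤ H.card) (hHpos : 0 < H.card) (hS : 1 ≤ S.card) :
    inj G H S ≤ 2 * ((univ.filter (fun h : G => tr h S ⊆ H)).filter
      (fun h => 2 * (T ∩ tr h S).card ≤ S.card)).card := by
  classical
  set B := univ.filter (fun h : G => tr h S ⊆ H) with hB
  have hBcard : B.card = inj G H S := rfl
  set e := S.card with he
  set Sig := ∑ h ∈ B, (T ∩ tr h S).card with hSig
  -- `4 Sig ≤ e |B|`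
  have h1 : 4 * Sig ≤ e * B.card := by
    have h2 : H.card * Sig ≤ T.card * (Lam * e * inj G H S) := by
      rw [hSig, ← sum_deg, Finset.mul_sum]
      calc ∑ x ∈ T, H.card * deg G H S x ≤ ∑ _x ∈ T, Lam * e * inj G H S :=
            Finset.sum_le_sum (fun x hx => hflat S x (hTH hx))
        _ = T.card * (Lam * e * inj G H S) := by rw [Finset.sum_const, smul_eq_mul]
    have h3 : H.card * (4 * Sig) ≤ H.card * (e * B.card) := by
      calc H.card * (4 * Sig) = 4 * (H.card * Sig) := by ring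
        _ ≤ 4 * (T.card * (Lam * e * inj G H S)) := Nat.mul_le_mul_left _ h2
        _ = (4 * Lam * T.card) * (e * B.card) := by rw [hBcard]; ring
        _ ≤ H.card * (e * B.card) := Nat.mul_le_mul_right _ hT4
    exact Nat.le_of_mul_le_mul_left h3 hHpos
  set bad := B.filter (fun h => ¬ 2 * (T ∩ tr h S).card ≤ e) with hbad
  set good := B.filter (fun h => 2 * (T ∩ tr h S).card ≤ e) with hgood
  have hsplit : good.card + bad.card = B.card := Finset.card_filter_add_card_filter_not _
  have h4 : e * bad.card ≤ 2 * Sig := by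
    have h5 : ∑ h ∈ bad, e ≤ ∑ h ∈ bad, 2 * (T ∩ tr h S).card := by
      refine Finset.sum_le_sum ?_
      intro h hh
      have := (Finset.mem_filter.1 hh).2
      omega
    have h6 : ∑ h ∈ bad, 2 * (T ∩ tr h S).card ≤ ∑ h ∈ B, 2 * (T ∩ tr h S).card :=
      Finset.sum_le_sum_of_subset (Finset.filter_subset _ _)
    rw [Finset.sum_const, smul_eq_mul, mul_comm] at h5
    have h6' : ∑ h ∈ B, 2 * (T ∩ tr h S).card = 2 * Sig := by rw [hSig, Finset.mul_sum]
    exact h5.trans (h6.trans h6'.le)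
  have h7 : e * (2 * bad.card) ≤ e * B.card := by
    calc e * (2 * bad.card) = 2 * (e * bad.card) := by ring
      _ ≤ 2 * (2 * Sig) := Nat.mul_le_mul_left _ h4
      _ = 4 * Sig := by ring
      _ ≤ e * B.card := h1
  have h8 : 2 * bad.card ≤ B.card := Nat.le_of_mul_le_mul_left h7 (by omega)
  show B.card ≤ 2 * good.card
  omega

/-- The pair count: `inj K * inj S ≤ 2 * ∑_γ inj (K ∪ γ S)`. -/
lemma pair_count {H S K : Finset X} {Lam : ℕ} (hflat : Flat G H Lam)
    (hK4 : 4 * Lam * K.card ≤ H.card) (hHpos : 0 < H.card) (hS : 1 ≤ S.card) :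
    inj G H K * inj G H S ≤ 2 * ∑ γ ∈ univ.filter (fun γ : G => 2 * (K ∩ tr γ S).card ≤ S.card),
      inj G H (K ∪ tr γ S) := by
  classical
  set A := univ.filter (fun g : G => tr g K ⊆ H) with hA
  set B := univ.filter (fun h : G => tr h S ⊆ H) with hB
  set good : G → Finset G := fun g => B.filter (fun h => 2 * (tr g K ∩ tr h S).card ≤ S.card)
    with hgood
  set Γ := univ.filter (fun γ : G => 2 * (K ∩ tr γ S).card ≤ S.card) with hΓ
  have hg : ∀ g ∈ A, B.card ≤ 2 * (good g).card := by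
    intro g hg
    have hgH : tr g K ⊆ H := (Finset.mem_filter.1 hg).2
    exact good_count hflat hgH (by rwa [card_tr]) hHpos hS
  -- sum over `g` of good `h`
  have h1 : A.card * B.card ≤ 2 * ∑ g ∈ A, (good g).card := by
    rw [Finset.mul_sum, ← smul_eq_mul]
    calc A.card • B.card = ∑ _g ∈ A, B.card := by rw [Finset.sum_const]
      _ ≤ ∑ g ∈ A, 2 * (good g).card := Finset.sum_le_sum hg
  -- for each `g`, `h ↦ g⁻¹ h` maps good `h` into the fibers
  have h2 : ∑ g ∈ A, (good g).card ≤ ∑ γ ∈ Γ, inj G H (K ∪ tr γ S) := by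
    have h3 : ∀ g ∈ A, (good g).card = ∑ γ ∈ Γ, if (tr g K ⊆ H ∧ tr (g * γ) S ⊆ H) then 1 else 0 := by
      intro g hg
      have hgH : tr g K ⊆ H := (Finset.mem_filter.1 hg).2
      rw [← Finset.card_filter]
      refine Finset.card_bij (fun h _ => g⁻¹ * h) ?_ ?_ ?_
      · intro h hh
        have hh' := Finset.mem_filter.1 hh
        have hhB : tr h S ⊆ H := (Finset.mem_filter.1 hh'.1).2
        have hov : 2 * (tr g K ∩ tr h S).card ≤ S.card := hh'.2
        simp only [mem_filter, hΓ, mem_univ, true_and]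
        refine ⟨?_, hgH, by rwa [mul_inv_cancel_left]⟩
        have : (K ∩ tr (g⁻¹ * h) S).card = (tr g K ∩ tr h S).card := by
          rw [← card_tr g (K ∩ tr (g⁻¹ * h) S), tr_inter, ← tr_mul, mul_inv_cancel_left]
        rw [this]; exact hov
      · intro a _ b _ hab
        exact mul_left_cancel hab
      · intro γ hγ
        have hγ' := Finset.mem_filter.1 hγ
        have hγ1 : 2 * (K ∩ tr γ S).card ≤ S.card := (Finset.mem_filter.1 hγ'.1).2
        refine ⟨g * γ, ?_, by simp⟩
        refine Finset.mem_filter.2 ⟨Finset.mem_filter.2 ⟨mem_univ _, hγ'.2.2⟩, ?_⟩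
        have : (tr g K ∩ tr (g * γ) S).card = (K ∩ tr γ S).card := by
          rw [tr_mul, ← tr_inter, card_tr]
        rw [this]; exact hγ1
    rw [Finset.sum_congr rfl h3, Finset.sum_comm]
    refine Finset.sum_le_sum ?_
    intro γ _
    rw [← Finset.card_filter]
    refine Finset.card_le_card ?_
    intro g hg
    have hg' := Finset.mem_filter.1 hg
    refine Finset.mem_filter.2 ⟨mem_univ _, ?_⟩
    rw [tr_union, ← tr_mul]
    exact Finset.union_subset hg'.2.1 hg'.2.2
  calc inj G H K * inj G H S = A.card * B.card := rfl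
    _ ≤ 2 * ∑ g ∈ A, (good g).card := h1
    _ ≤ 2 * ∑ γ ∈ Γ, inj G H (K ∪ tr γ S) := Nat.mul_le_mul_left _ h2

/-- The overlap sum, where the induction hypothesis is used. -/
lemma overlap_sum {H S K : Finset X} (hKH : K ⊆ H) (hS : 1 ≤ S.card) {q Λ : ℝ} (hq : 0 < q)
    (hΛ : 1 ≤ Λ)
    (IH : ∀ E : Finset X, E.card < S.card →
      (inj G H E : ℝ) ≤ Fintype.card G * (Λ ^ 2 * q) ^ E.card) :
    ∑ γ ∈ univ.filter (fun γ : G => 2 * (K ∩ tr γ S).card ≤ S.card),
        q ^ (S.card - (K ∩ tr γ S).card) ≤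
      Fintype.card G * (2 : ℝ) ^ S.card * Λ ^ S.card * q ^ S.card := by
  classical
  set Γ := univ.filter (fun γ : G => 2 * (K ∩ tr γ S).card ≤ S.card) with hΓ
  set e := S.card with he
  set EE : G → Finset X := fun γ => tr γ⁻¹ K ∩ S with hEE
  have hEEcard : ∀ γ : G, (EE γ).card = (K ∩ tr γ S).card := by
    intro γ
    have : tr γ (EE γ) = K ∩ tr γ S := by
      rw [hEE]
      simp only
      rw [tr_inter, tr_tr_inv]
    rw [← this, card_tr]
  set 𝓔 := S.powerset.filter (fun E => 2 * E.card ≤ e) with h𝓔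
  have hmaps : ∀ γ ∈ Γ, EE γ ∈ 𝓔 := by
    intro γ hγ
    have h := (Finset.mem_filter.1 hγ).2
    refine Finset.mem_filter.2 ⟨Finset.mem_powerset.2 Finset.inter_subset_right, ?_⟩
    rw [hEEcard]; exact h
  have hstep : ∀ E ∈ 𝓔, ∑ γ ∈ Γ.filter (fun γ => EE γ = E), q ^ (e - (K ∩ tr γ S).card) ≤
      Fintype.card G * Λ ^ e * q ^ e := by
    intro E hE
    have hE' := Finset.mem_filter.1 hE
    have hE2 : 2 * E.card ≤ e := hE'.2
    have hEe : E.card < e := by omega
    have h1 : ∑ γ ∈ Γ.filter (fun γ => EE γ = E), q ^ (e - (K ∩ tr γ S).card) =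
        ((Γ.filter (fun γ => EE γ = E)).card : ℝ) * q ^ (e - E.card) := by
      rw [← nsmul_eq_mul, ← Finset.sum_const]
      refine Finset.sum_congr rfl ?_
      intro γ hγ
      have := (Finset.mem_filter.1 hγ).2
      rw [← hEEcard, this]
    have h2 : (Γ.filter (fun γ => EE γ = E)).card ≤ inj G H E := by
      unfold inj
      refine Finset.card_le_card ?_
      intro γ hγ
      have hγE := (Finset.mem_filter.1 hγ).2
      refine Finset.mem_filter.2 ⟨mem_univ _, ?_⟩
      rw [← hγE]
      have : tr γ (EE γ) = K ∩ tr γ S := by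
        rw [hEE]
        simp only
        rw [tr_inter, tr_tr_inv]
      rw [this]
      exact Finset.inter_subset_left.trans hKH
    have h3 : (inj G H E : ℝ) ≤ Fintype.card G * (Λ ^ 2 * q) ^ E.card := IH E hEe
    rw [h1]
    have hqe : q ^ (e - E.card) * q ^ E.card = q ^ e := by
      rw [← pow_add]; congr 1; omega
    have hΛe : (Λ ^ 2) ^ E.card ≤ Λ ^ e := by
      rw [← pow_mul]
      exact pow_le_pow_right₀ hΛ hE2
    have hG : (0 : ℝ) ≤ Fintype.card G := Nat.cast_nonneg _
    have hqpos : 0 < q ^ (e - E.card) := pow_pos hq _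
    calc ((Γ.filter (fun γ => EE γ = E)).card : ℝ) * q ^ (e - E.card)
        ≤ (inj G H E : ℝ) * q ^ (e - E.card) := by
          refine mul_le_mul_of_nonneg_right ?_ hqpos.le
          exact_mod_cast h2
      _ ≤ (Fintype.card G * (Λ ^ 2 * q) ^ E.card) * q ^ (e - E.card) :=
          mul_le_mul_of_nonneg_right h3 hqpos.le
      _ = Fintype.card G * (Λ ^ 2) ^ E.card * (q ^ (e - E.card) * q ^ E.card) := by
          rw [mul_pow]; ring
      _ = Fintype.card G * (Λ ^ 2) ^ E.card * q ^ e := by rw [hqe]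
      _ ≤ Fintype.card G * Λ ^ e * q ^ e := by
          refine mul_le_mul_of_nonneg_right ?_ (pow_pos hq _).le
          exact mul_le_mul_of_nonneg_left hΛe hG
  have hsum : ∑ γ ∈ Γ, q ^ (e - (K ∩ tr γ S).card) =
      ∑ E ∈ 𝓔, ∑ γ ∈ Γ.filter (fun γ => EE γ = E), q ^ (e - (K ∩ tr γ S).card) :=
    (Finset.sum_fiberwise_of_maps_to hmaps _).symm
  have hcard : (𝓔.card : ℝ) ≤ 2 ^ e := by
    have : 𝓔.card ≤ 2 ^ e := by
      calc 𝓔.card ≤ S.powerset.card := Finset.card_filter_le _ _
        _ = 2 ^ e := Finset.card_powerset _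
    exact_mod_cast this
  rw [hsum]
  have hG : (0 : ℝ) ≤ Fintype.card G := Nat.cast_nonneg _
  have hnn : (0 : ℝ) ≤ Fintype.card G * Λ ^ e * q ^ e := by positivity
  calc ∑ E ∈ 𝓔, ∑ γ ∈ Γ.filter (fun γ => EE γ = E), q ^ (e - (K ∩ tr γ S).card)
      ≤ ∑ _E ∈ 𝓔, (Fintype.card G * Λ ^ e * q ^ e) := Finset.sum_le_sum hstep
    _ = (𝓔.card : ℝ) * (Fintype.card G * Λ ^ e * q ^ e) := by
        rw [Finset.sum_const, nsmul_eq_mul]
    _ ≤ 2 ^ e * (Fintype.card G * Λ ^ e * q ^ e) := mul_le_mul_of_nonneg_right hcard hnn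
    _ = Fintype.card G * 2 ^ e * Λ ^ e * q ^ e := by ring

/-- One glue step. -/
lemma glue_step {H S K : Finset X} {Lam : ℕ} (hflat : Flat G H Lam) (hKH : K ⊆ H)
    (hK4 : 4 * Lam * K.card ≤ H.card) (hHpos : 0 < H.card) (hS : 1 ≤ S.card) {q Λ t : ℝ}
    (hq : 0 < q) (hΛ : 1 ≤ Λ) (ht : 0 ≤ t)
    (IH : ∀ E : Finset X, E.card < S.card →
      (inj G H E : ℝ) ≤ Fintype.card G * (Λ ^ 2 * q) ^ E.card)
    (hT : ∀ K' : Finset X, K' ⊆ H → K'.card ≤ K.card + S.card →
      (inj G H K' : ℝ) ≤ t * Fintype.card G * q ^ K'.card) :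
    (inj G H K : ℝ) * inj G H S ≤
      2 * (t * Fintype.card G * q ^ K.card) *
        (Fintype.card G * (2 : ℝ) ^ S.card * Λ ^ S.card * q ^ S.card) := by
  classical
  set Γ := univ.filter (fun γ : G => 2 * (K ∩ tr γ S).card ≤ S.card) with hΓ
  have h1 : (inj G H K : ℝ) * inj G H S ≤ 2 * ∑ γ ∈ Γ, (inj G H (K ∪ tr γ S) : ℝ) := by
    have := pair_count (G := G) hflat hK4 hHpos hS
    exact_mod_cast this
  have hG : (0 : ℝ) ≤ Fintype.card G := Nat.cast_nonneg _
  have h2 : ∀ γ ∈ Γ, (inj G H (K ∪ tr γ S) : ℝ) ≤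
      (t * Fintype.card G * q ^ K.card) * q ^ (S.card - (K ∩ tr γ S).card) := by
    intro γ _
    have hU : (K ∪ tr γ S).card + (K ∩ tr γ S).card = K.card + S.card := by
      rw [Finset.card_union_add_card_inter, card_tr]
    have hov : (K ∩ tr γ S).card ≤ S.card := by
      calc (K ∩ tr γ S).card ≤ (tr γ S).card := Finset.card_le_card Finset.inter_subset_right
        _ = S.card := card_tr _ _
    have hUc : (K ∪ tr γ S).card = K.card + (S.card - (K ∩ tr γ S).card) := by omega
    by_cases h0 : inj G H (K ∪ tr γ S) = 0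
    · rw [h0]
      simp only [Nat.cast_zero]
      positivity
    · obtain ⟨g, hg⟩ : ∃ g : G, tr g (K ∪ tr γ S) ⊆ H := by
        unfold inj at h0
        obtain ⟨g, hg⟩ := Finset.card_ne_zero.1 h0
        exact ⟨g, (Finset.mem_filter.1 hg).2⟩
      have h3 := hT (tr g (K ∪ tr γ S)) hg (by rw [card_tr]; omega)
      rw [inj_tr, card_tr, hUc, pow_add] at h3
      rw [hUc] at *
      calc (inj G H (K ∪ tr γ S) : ℝ)
          ≤ t * Fintype.card G * (q ^ K.card * q ^ (S.card - (K ∩ tr γ S).card)) := h3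
        _ = _ := by ring
  have hsum := overlap_sum (G := G) hKH hS hq hΛ IH
  have hnn : (0 : ℝ) ≤ t * Fintype.card G * q ^ K.card := by positivity
  calc (inj G H K : ℝ) * inj G H S ≤ 2 * ∑ γ ∈ Γ, (inj G H (K ∪ tr γ S) : ℝ) := h1
    _ ≤ 2 * ∑ γ ∈ Γ, ((t * Fintype.card G * q ^ K.card) * q ^ (S.card - (K ∩ tr γ S).card)) := by
        refine mul_le_mul_of_nonneg_left ?_ (by norm_num)
        exact Finset.sum_le_sum h2
    _ = 2 * ((t * Fintype.card G * q ^ K.card) * ∑ γ ∈ Γ, q ^ (S.card - (K ∩ tr γ S).card)) := by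
        simp only [Finset.mul_sum]
    _ ≤ 2 * ((t * Fintype.card G * q ^ K.card) *
          (Fintype.card G * (2 : ℝ) ^ S.card * Λ ^ S.card * q ^ S.card)) := by
        refine mul_le_mul_of_nonneg_left ?_ (by norm_num)
        exact mul_le_mul_of_nonneg_left hsum hnn
    _ = _ := by ring

/-- The end bound: a set `K ⊆ H` whose orbit is not cheap has few labelled copies in `H`. -/
lemma end_bound {H K : Finset X} {q : ℝ} (hq : 0 < q)
    (hc : (1 : ℝ) / 2 ≤ ((univ : Finset G).image (fun g : G => tr g K)).card * q ^ K.card) :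
    (inj G H K : ℝ) ≤ 2 * (H.card.choose K.card : ℝ) * Fintype.card G * q ^ K.card := by
  classical
  set f : G → Finset X := fun g => tr g K with hf
  set O := (univ : Finset G).image f with hO
  set s := (univ.filter (fun g : G => f g = K)).card with hs
  have hfib : ∀ g0 : G, (univ.filter (fun g : G => f g = f g0)).card = s := by
    intro g0
    rw [hs]
    refine Finset.card_bij (fun g _ => g0⁻¹ * g) ?_ ?_ ?_
    · intro g hg
      have h := (Finset.mem_filter.1 hg).2
      refine Finset.mem_filter.2 ⟨mem_univ _, ?_⟩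
      simp only [hf] at h ⊢
      rw [tr_mul, h, tr_inv_tr]
    · intro a _ b _ hab
      exact mul_left_cancel hab
    · intro b hb
      have h := (Finset.mem_filter.1 hb).2
      refine ⟨g0 * b, ?_, by simp⟩
      refine Finset.mem_filter.2 ⟨mem_univ _, ?_⟩
      simp only [hf] at h ⊢
      rw [tr_mul, h]
  have hG : Fintype.card G = O.card * s := by
    have h := Finset.card_eq_sum_card_image f (univ : Finset G)
    have h2 : ∀ b ∈ O, ((univ : Finset G).filter (fun g => f g = b)).card = s := by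
      intro b hb
      obtain ⟨g0, _, rfl⟩ := Finset.mem_image.1 hb
      exact hfib g0
    rw [Finset.sum_congr rfl h2, Finset.sum_const, smul_eq_mul] at h
    rw [← h]; rfl
  set A := univ.filter (fun g : G => f g ⊆ H) with hA
  have hAc : A.card = inj G H K := rfl
  have hAle : A.card ≤ H.card.choose K.card * s := by
    have h := Finset.card_eq_sum_card_image f A
    have h2 : ∀ b ∈ A.image f, (A.filter (fun g => f g = b)).card ≤ s := by
      intro b hb
      obtain ⟨g0, _, rfl⟩ := Finset.mem_image.1 hb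
      rw [← hfib g0]
      exact Finset.card_le_card (Finset.filter_subset_filter _ (Finset.subset_univ _))
    have h3 : (A.image f).card ≤ H.card.choose K.card := by
      calc (A.image f).card ≤ (H.powersetCard K.card).card := by
            refine Finset.card_le_card ?_
            intro b hb
            obtain ⟨g0, hg0, rfl⟩ := Finset.mem_image.1 hb
            exact Finset.mem_powersetCard.2 ⟨(Finset.mem_filter.1 hg0).2, card_tr g0 K⟩
        _ = H.card.choose K.card := Finset.card_powersetCard _ _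
    calc A.card = ∑ b ∈ A.image f, (A.filter (fun g => f g = b)).card := h
      _ ≤ ∑ _b ∈ A.image f, s := Finset.sum_le_sum h2
      _ = (A.image f).card * s := by rw [Finset.sum_const, smul_eq_mul]
      _ ≤ H.card.choose K.card * s := Nat.mul_le_mul_right _ h3
  have hmain : inj G H K * O.card ≤ H.card.choose K.card * Fintype.card G := by
    rw [hG, ← hAc]
    calc A.card * O.card ≤ (H.card.choose K.card * s) * O.card := Nat.mul_le_mul_right _ hAle
      _ = H.card.choose K.card * (O.card * s) := by ring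
  have hmainR : (inj G H K : ℝ) * O.card ≤ (H.card.choose K.card : ℝ) * Fintype.card G := by
    exact_mod_cast hmain
  have hqp : 0 < q ^ K.card := pow_pos hq _
  have h0 : (0 : ℝ) ≤ inj G H K := Nat.cast_nonneg _
  calc (inj G H K : ℝ) = (inj G H K : ℝ) * 1 := by ring
    _ ≤ (inj G H K : ℝ) * (2 * (O.card * q ^ K.card)) := by
        refine mul_le_mul_of_nonneg_left ?_ h0
        linarith
    _ = 2 * q ^ K.card * ((inj G H K : ℝ) * O.card) := by ring
    _ ≤ 2 * q ^ K.card * ((H.card.choose K.card : ℝ) * Fintype.card G) :=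
        mul_le_mul_of_nonneg_left hmainR (by positivity)
    _ = _ := by ring

lemma choose_mul_pow_le (N m : ℕ) {x : ℝ} (hx : 0 ≤ x) :
    (N.choose m : ℝ) * x ^ m ≤ (1 + x) ^ N := by
  by_cases hm : m ≤ N
  · have h1 := add_pow x 1 N
    rw [add_comm] at h1
    rw [h1]
    have h2 : ∀ j ∈ Finset.range (N + 1), 0 ≤ x ^ j * 1 ^ (N - j) * (N.choose j : ℝ) := by
      intro j _
      positivity
    have h3 := Finset.single_le_sum h2 (Finset.mem_range.2 (Nat.lt_succ_of_le hm))
    simp only [one_pow, mul_one] at h3 ⊢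
    linarith
  · rw [Nat.choose_eq_zero_of_lt (by omega)]
    simp only [Nat.cast_zero, zero_mul]
    positivity

/-- The entropy bound for the binomial coefficient. -/
lemma choose_le_entropy {N m s : ℕ} {Y : ℝ} (hY : 1 ≤ Y) (hN : (N : ℝ) ≤ Y * s) (hm : m ≤ s) :
    (N.choose m : ℝ) ≤ (Real.exp 1 * Y) ^ s := by
  have hY0 : 0 < Y := by linarith
  have h1 := choose_mul_pow_le N m (x := 1 / Y) (by positivity)
  have h2 : (1 + 1 / Y) ^ N ≤ Real.exp 1 ^ s := by
    have h3 : 1 + 1 / Y ≤ Real.exp (1 / Y) := by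
      have := Real.add_one_le_exp (1 / Y)
      linarith
    calc (1 + 1 / Y) ^ N ≤ Real.exp (1 / Y) ^ N := pow_le_pow_left₀ (by positivity) h3 _
      _ = Real.exp ((N : ℝ) * (1 / Y)) := by rw [← Real.exp_nat_mul]
      _ ≤ Real.exp ((s : ℝ) * 1) := by
          apply Real.exp_le_exp.2
          rw [mul_one, mul_one_div, div_le_iff₀ hY0]
          linarith
      _ = Real.exp 1 ^ s := by rw [Real.exp_nat_mul]
  have h4 : (0 : ℝ) < (1 / Y) ^ m := by positivity
  have h5 : (N.choose m : ℝ) ≤ Real.exp 1 ^ s * Y ^ m := by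
    have h6 : (N.choose m : ℝ) * (1 / Y) ^ m ≤ Real.exp 1 ^ s := h1.trans h2
    have h7 : (1 / Y) ^ m * Y ^ m = 1 := by
      rw [← mul_pow, one_div, inv_mul_cancel₀ hY0.ne', one_pow]
    calc (N.choose m : ℝ) = (N.choose m : ℝ) * ((1 / Y) ^ m * Y ^ m) := by rw [h7, mul_one]
      _ = ((N.choose m : ℝ) * (1 / Y) ^ m) * Y ^ m := by ring
      _ ≤ _ := mul_le_mul_of_nonneg_right h6 (by positivity)
  refine h5.trans ?_
  rw [mul_pow]
  have hexp := Real.exp_pos 1
  have h8 : Y ^ m ≤ Y ^ s := pow_le_pow_right₀ hY hm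
  exact mul_le_mul_of_nonneg_left h8 (by positivity)

lemma aux_pow (a q : ℝ) (e : ℕ) : (a ^ 2 * q) ^ e = a ^ e * a ^ e * q ^ e := by
  rw [mul_pow, ← pow_mul, two_mul, pow_add]

/-- The main bound. `Λ = 140 Lam`. -/
theorem inj_le {H : Finset X} {Lam : ℕ} (hflat : Flat G H Lam) (hLam : 1 ≤ Lam)
    (hHpos : 0 < H.card) {q : ℝ} (hq : 0 < q)
    (hc : ∀ K : Finset X, K ⊆ H →
      (1 : ℝ) / 2 ≤ ((univ : Finset G).image (fun g : G => tr g K)).card * q ^ K.card) :
    ∀ (e : ℕ) (S : Finset X), S.card = e →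
      (inj G H S : ℝ) ≤ Fintype.card G * ((140 * (Lam : ℝ)) ^ 2 * q) ^ e := by
  classical
  have hLamR : (1 : ℝ) ≤ (Lam : ℝ) := by exact_mod_cast hLam
  have hexp1 := Real.exp_pos 1
  set Λ : ℝ := 140 * (Lam : ℝ) with hΛdef
  have hΛ : 1 ≤ Λ := by
    rw [hΛdef]
    linarith
  have hGpos : (0 : ℝ) < Fintype.card G := by exact_mod_cast Fintype.card_pos
  intro e
  induction e using Nat.strong_induction_on with
  | _ e ih =>
    intro S hSe
    rcases Nat.eq_zero_or_pos e with he0 | hepos
    · subst he0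
      have : S = ∅ := Finset.card_eq_zero.1 hSe
      subst this
      rw [inj_empty]
      simp
    by_contra hcon
    push_neg at hcon
    have hS1 : 1 ≤ S.card := by omega
    have IH : ∀ E : Finset X, E.card < S.card →
        (inj G H E : ℝ) ≤ Fintype.card G * (Λ ^ 2 * q) ^ E.card := by
      intro E hE
      exact ih E.card (by omega) E rfl
    set ρ : ℝ := 3 * (Real.exp 1 * (4 * (Lam : ℝ))) ^ e with hρdef
    have hρpos : 0 < ρ := by positivity
    -- the strict inequality driving the chain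
    have hbig : 2 * ρ * (Fintype.card G * (2 : ℝ) ^ e * Λ ^ e * q ^ e) < (inj G H S : ℝ) := by
      refine lt_of_le_of_lt ?_ hcon
      have hpow : (2 : ℝ) * ρ * 2 ^ e ≤ Λ ^ e := by
        have h6 : (6 : ℝ) ≤ 6 ^ e := by
          calc (6 : ℝ) = 6 ^ 1 := by norm_num
            _ ≤ 6 ^ e := pow_le_pow_right₀ (by norm_num) hepos
        have h7 : (0 : ℝ) ≤ (Real.exp 1 * (4 * (Lam : ℝ))) ^ e * 2 ^ e := by positivity
        have h8 := Real.exp_one_lt_d9
        have h9 : 6 * (Real.exp 1 * (4 * (Lam : ℝ))) * 2 ≤ Λ := by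
          rw [hΛdef]
          nlinarith
        calc (2 : ℝ) * ρ * 2 ^ e = 6 * ((Real.exp 1 * (4 * (Lam : ℝ))) ^ e * 2 ^ e) := by
              rw [hρdef]
              ring
          _ ≤ 6 ^ e * ((Real.exp 1 * (4 * (Lam : ℝ))) ^ e * 2 ^ e) :=
              mul_le_mul_of_nonneg_right h6 h7
          _ = (6 * (Real.exp 1 * (4 * (Lam : ℝ))) * 2) ^ e := by
              rw [mul_pow (6 * (Real.exp 1 * (4 * (Lam : ℝ)))) 2 e,
                mul_pow 6 (Real.exp 1 * (4 * (Lam : ℝ))) e]
              ring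
          _ ≤ Λ ^ e := pow_le_pow_left₀ (by positivity) h9 _
      have hqe : 0 < q ^ e := pow_pos hq _
      have hΛe : 0 < Λ ^ e := by positivity
      calc 2 * ρ * (Fintype.card G * (2 : ℝ) ^ e * Λ ^ e * q ^ e)
          = ((2 : ℝ) * ρ * 2 ^ e) * (Fintype.card G * Λ ^ e * q ^ e) := by ring
        _ ≤ Λ ^ e * (Fintype.card G * Λ ^ e * q ^ e) :=
            mul_le_mul_of_nonneg_right hpow (by positivity)
        _ = Fintype.card G * (Λ ^ 2 * q) ^ e := by
            rw [aux_pow]; ring
    -- the chain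
    set d := 4 * Lam * e with hd
    have hdpos : 0 < d := by positivity
    set M := H.card / d + 1 with hM
    have hM1 : (M - 1) * d ≤ H.card := by
      rw [hM]; simpa using Nat.div_mul_le_self H.card d
    have hM2 : H.card < M * d := by
      rw [hM, mul_comm]
      exact Nat.lt_mul_div_succ _ hdpos
    have hchain : ∀ i, i ≤ M → ∃ K : Finset X, K ⊆ H ∧ K.card ≤ i * e ∧
        ρ ^ i * (Fintype.card G * q ^ K.card) ≤ (inj G H K : ℝ) := by
      intro i
      induction i with
      | zero =>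
        intro _
        refine ⟨∅, Finset.empty_subset _, by simp, ?_⟩
        rw [inj_empty]
        simp
      | succ i ihi =>
        intro hi
        obtain ⟨K, hKH, hKc, hKR⟩ := ihi (by omega)
        by_contra hno
        push_neg at hno
        have hK4 : 4 * Lam * K.card ≤ H.card := by
          have h1 : 4 * Lam * K.card ≤ 4 * Lam * (i * e) := Nat.mul_le_mul_left _ hKc
          have h2 : 4 * Lam * (i * e) = i * d := by rw [hd]; ring
          have h3 : i * d ≤ (M - 1) * d := Nat.mul_le_mul_right _ (by omega)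
          omega
        have hT : ∀ K' : Finset X, K' ⊆ H → K'.card ≤ K.card + S.card →
            (inj G H K' : ℝ) ≤ ρ ^ (i + 1) * Fintype.card G * q ^ K'.card := by
          intro K' hK' hc'
          have hc'' : K'.card ≤ (i + 1) * e := by
            rw [hSe] at hc'
            nlinarith
          have := hno K' hK' hc''
          nlinarith [this]
        have hstep := glue_step (G := G) hflat hKH hK4 hHpos hS1 hq hΛ (by positivity : 0 ≤ ρ ^ (i + 1))
          IH hT
        rw [hSe] at hstep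
        have hqK : 0 < q ^ K.card := pow_pos hq _
        have hA : 0 < ρ ^ i * (Fintype.card G * q ^ K.card) := by positivity
        have hS0 : (0 : ℝ) ≤ inj G H S := Nat.cast_nonneg _
        have h1 : (ρ ^ i * (Fintype.card G * q ^ K.card)) * (inj G H S : ℝ) ≤
            (ρ ^ i * (Fintype.card G * q ^ K.card)) *
              (2 * ρ * (Fintype.card G * (2 : ℝ) ^ e * Λ ^ e * q ^ e)) := by
          calc (ρ ^ i * (Fintype.card G * q ^ K.card)) * (inj G H S : ℝ)
              ≤ (inj G H K : ℝ) * (inj G H S : ℝ) := mul_le_mul_of_nonneg_right hKR hS0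
            _ ≤ _ := hstep
            _ = _ := by rw [pow_succ]; ring
        have h2 := le_of_mul_le_mul_left h1 hA
        exact absurd hbig (not_lt.2 h2)
    obtain ⟨K, hKH, hKc, hKR⟩ := hchain M le_rfl
    have hend := end_bound (H := H) hq (hc K hKH)
    have hqK : 0 < q ^ K.card := pow_pos hq _
    have hA : 0 < Fintype.card G * q ^ K.card := by positivity
    have hY1 : (1 : ℝ) ≤ 4 * (Lam : ℝ) := by linarith
    have hNle : ((H.card : ℕ) : ℝ) ≤ 4 * (Lam : ℝ) * ((M * e : ℕ) : ℝ) := by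
      have h0 : H.card ≤ 4 * Lam * (M * e) := by
        have h00 : M * d = 4 * Lam * (M * e) := by
          rw [hd]
          ring
        omega
      have h0' : ((H.card : ℕ) : ℝ) ≤ ((4 * Lam * (M * e) : ℕ) : ℝ) := by exact_mod_cast h0
      refine h0'.trans (le_of_eq ?_)
      push_cast
      ring
    have hch := choose_le_entropy hY1 hNle hKc
    set Z : ℝ := (Real.exp 1 * (4 * (Lam : ℝ))) ^ (M * e) with hZ
    have hZpos : 0 < Z := by positivity
    have h1 : ρ ^ M ≤ 2 * Z := by
      have h2 : ρ ^ M * (Fintype.card G * q ^ K.card) ≤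
          (2 * Z) * (Fintype.card G * q ^ K.card) := by
        calc _ ≤ (inj G H K : ℝ) := hKR
          _ ≤ 2 * (H.card.choose K.card : ℝ) * Fintype.card G * q ^ K.card := hend
          _ = (2 * (H.card.choose K.card : ℝ)) * (Fintype.card G * q ^ K.card) := by ring
          _ ≤ _ := by
              refine mul_le_mul_of_nonneg_right ?_ hA.le
              linarith
      exact le_of_mul_le_mul_right h2 hA
    have h3 : ρ ^ M = 3 ^ M * Z := by
      rw [hρdef, mul_pow, ← pow_mul, mul_comm e M]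
    rw [h3] at h1
    have hM0 : 1 ≤ M := Nat.le_add_left 1 _
    have h4 : (3 : ℝ) ≤ 3 ^ M := by
      calc (3 : ℝ) = 3 ^ 1 := by norm_num
        _ ≤ 3 ^ M := pow_le_pow_right₀ (by norm_num) hM0
    nlinarith

lemma card_subset_tr (H S : Finset X) :
    (univ.filter (fun a : G => S ⊆ tr a H)).card = inj G H S := by
  classical
  unfold inj
  refine Finset.card_bij (fun a _ => a⁻¹) ?_ ?_ ?_
  · intro a ha
    have h := (Finset.mem_filter.1 ha).2
    refine Finset.mem_filter.2 ⟨mem_univ _, ?_⟩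
    have h2 := tr_mono a⁻¹ h
    rwa [tr_inv_tr] at h2
  · intro a _ b _ hab
    exact inv_injective hab
  · intro b hb
    have h := (Finset.mem_filter.1 hb).2
    refine ⟨b⁻¹, ?_, inv_inv b⟩
    refine Finset.mem_filter.2 ⟨mem_univ _, ?_⟩
    have h2 := tr_mono b⁻¹ h
    rwa [tr_inv_tr] at h2

/-- The constant `K(Lam) = (140 Lam)^2`. -/
noncomputable def KK (Lam : ℕ) : ℝ := (140 * (Lam : ℝ)) ^ 2

lemma KK_pos {Lam : ℕ} (hLam : 1 ≤ Lam) : 0 < KK Lam := by
  have : (1 : ℝ) ≤ (Lam : ℝ) := by exact_mod_cast hLam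
  unfold KK
  positivity

lemma one_le_KK {Lam : ℕ} (hLam : 1 ≤ Lam) : 1 ≤ KK Lam := by
  have h : (1 : ℝ) ≤ (Lam : ℝ) := by exact_mod_cast hLam
  unfold KK
  nlinarith

theorem frac_to_small [Fintype X] {H : Finset X} (hH : H.Nonempty) {Lam : ℕ} (hLam : 1 ≤ Lam)
    (hflat : Flat G H Lam) {p : ℝ} (hp0 : 0 ≤ p)
    (hfrac : HasFracCover (orbitFamily G H) p) : IsSmall (orbitFamily G H) (p / KK Lam) := by
  classical
  by_contra hns
  set q : ℝ := p / KK Lam with hqdef
  have hKp := KK_pos hLam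
  have hq0 : 0 ≤ q := div_nonneg hp0 hKp.le
  have hc : ∀ K : Finset X, K ⊆ H →
      (1 : ℝ) / 2 ≤ ((univ : Finset G).image (fun g : G => tr g K)).card * q ^ K.card := by
    intro K hK
    by_contra hlt
    push_neg at hlt
    apply hns
    refine ⟨(univ : Finset G).image (fun g : G => tr g K), ?_, ?_⟩
    · rintro A ⟨g, hg⟩
      exact ⟨tr g K, Finset.mem_image.2 ⟨g, mem_univ _, rfl⟩, (tr_mono g hK).trans hg⟩
    · have : ∀ S ∈ (univ : Finset G).image (fun g : G => tr g K), q ^ S.card = q ^ K.card := by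
        intro S hS
        obtain ⟨g, _, rfl⟩ := Finset.mem_image.1 hS
        rw [card_tr]
      rw [Finset.sum_congr rfl this, Finset.sum_const, nsmul_eq_mul]
      exact hlt.le
  have hHpos : 0 < H.card := Finset.card_pos.2 hH
  have hqpos : 0 < q := by
    rcases hq0.lt_or_eq with h | h
    · exact h
    · exfalso
      have h2 := hc H (Finset.Subset.refl _)
      rw [← h, zero_pow hHpos.ne', mul_zero] at h2
      norm_num at h2
  have hbound : ∀ S : Finset X, (inj G H S : ℝ) ≤ Fintype.card G * p ^ S.card := by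
    intro S
    have h := inj_le (G := G) hflat hLam hHpos hqpos hc S.card S rfl
    have h2 : (140 * (Lam : ℝ)) ^ 2 * q = p := by
      have h3 : (140 * (Lam : ℝ)) ^ 2 = KK Lam := rfl
      rw [h3, hqdef]
      field_simp
    rwa [h2] at h
  obtain ⟨g, hg, hcov, hcost⟩ := hfrac
  have hGpos : (0 : ℝ) < Fintype.card G := by exact_mod_cast Fintype.card_pos
  have h1 : (Fintype.card G : ℝ) ≤ ∑ a : G, ∑ S ∈ (tr a H).powerset, g S := by
    have : ∀ a ∈ (univ : Finset G), (1 : ℝ) ≤ ∑ S ∈ (tr a H).powerset, g S := by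
      intro a _
      exact hcov _ ⟨a, Finset.Subset.refl _⟩
    calc (Fintype.card G : ℝ) = ∑ _a : G, (1 : ℝ) := by simp
      _ ≤ _ := Finset.sum_le_sum this
  have h2 : ∑ a : G, ∑ S ∈ (tr a H).powerset, g S = ∑ S : Finset X, g S * (inj G H S : ℝ) := by
    have h3 : ∀ a : G, ∑ S ∈ (tr a H).powerset, g S =
        ∑ S : Finset X, if S ⊆ tr a H then g S else 0 := by
      intro a
      rw [← Finset.sum_filter]
      refine Finset.sum_congr ?_ (fun _ _ => rfl)
      ext S
      simp
    simp_rw [h3]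
    rw [Finset.sum_comm]
    refine Finset.sum_congr rfl ?_
    intro S _
    rw [← card_subset_tr (G := G) H S, ← Finset.sum_filter, Finset.sum_const, nsmul_eq_mul, mul_comm]
  have h3 : ∑ S : Finset X, g S * (inj G H S : ℝ) ≤
      ∑ S : Finset X, g S * (Fintype.card G * p ^ S.card) :=
    Finset.sum_le_sum (fun S _ => mul_le_mul_of_nonneg_left (hbound S) (hg S).1)
  have h4 : ∑ S : Finset X, g S * (Fintype.card G * p ^ S.card) =
      Fintype.card G * ∑ S : Finset X, g S * p ^ S.card := by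
    rw [Finset.mul_sum]
    refine Finset.sum_congr rfl (fun S _ => by ring)
  have h5 : (Fintype.card G : ℝ) * ∑ S : Finset X, g S * p ^ S.card ≤ Fintype.card G * (1 / 2) :=
    mul_le_mul_of_nonneg_left hcost hGpos.le
  have h6 : (Fintype.card G : ℝ) ≤ Fintype.card G * (1 / 2) := by
    calc (Fintype.card G : ℝ) ≤ ∑ a : G, ∑ S ∈ (tr a H).powerset, g S := h1
      _ = _ := h2
      _ ≤ _ := h3
      _ = _ := h4
      _ ≤ _ := h5
  linarith

theorem qFrac_le [Fintype X] {H : Finset X} (hH : H.Nonempty) {Lam : ℕ} (hLam : 1 ≤ Lam)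
    (hflat : Flat G H Lam) :
    qFrac (orbitFamily G H) ≤ KK Lam * qInt (orbitFamily G H) := by
  have hKp := KK_pos hLam
  have hq0 : 0 ≤ qInt (orbitFamily G H) := by
    refine Real.sSup_nonneg ?_
    rintro x ⟨hx, _⟩
    exact hx
  refine Real.sSup_le ?_ (by positivity)
  rintro p ⟨hp0, hp1, hfr⟩
  have hs := frac_to_small (G := G) hH hLam hflat hp0 hfr
  have hbdd : BddAbove {p | 0 ≤ p ∧ p ≤ 1 ∧ IsSmall (orbitFamily G H) p} :=
    ⟨1, fun x hx => hx.2.1⟩
  have hle : p / KK Lam ≤ qInt (orbitFamily G H) := by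
    refine le_csSup hbdd ⟨div_nonneg hp0 hKp.le, ?_, hs⟩
    rw [div_le_one hKp]
    exact hp1.trans (one_le_KK hLam)
  rw [div_le_iff₀ hKp] at hle
  linarith

/-- Talagrand's inequality `q_f(F) ≤ K q(F)` for every increasing family `F` generated by the orbit
of a single nonempty set `H` under a finite group `G` acting on `X`, provided `H` is flat
(for instance if the stabilizer of `H` acts transitively on `H`, `Lam = 1`, or with orbits holding at
least a fraction `1 / Lam` of `H`), with `K = (140 Lam)^2`. -/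
theorem result (Lam : ℕ) (hLam : 1 ≤ Lam) (X G : Type) [Fintype X] [DecidableEq X] [Group G]
    [Fintype G] [MulAction G X] (H : Finset X) (hH : H.Nonempty) :
    (OrbitsLarge G H Lam → Flat G H Lam) ∧
    (Flat G H Lam →
      (∀ p : ℝ, 0 ≤ p → p ≤ 1 → HasFracCover (orbitFamily G H) p →
        IsSmall (orbitFamily G H) (p / KK Lam)) ∧
      qFrac (orbitFamily G H) ≤ KK Lam * qInt (orbitFamily G H)) :=
  ⟨flat_of_orbits, fun hflat =>
    ⟨fun _p hp0 _ hfr => frac_to_small hH hLam hflat hp0 hfr, qFrac_le hH hLam hflat⟩⟩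

end Vale.Agent.Results.P034.SymmetricOrbit
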